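import Vale.Agent.Lib.P205.Miranda

/-!
Closed horizontal curves in the three-sphere with prescribed length and holonomy.
-/

namespace Vale.Agent.Lib.P205

open Real Set intervalIntegral MeasureTheory

noncomputable section

/-- The latitude function of the curve. -/
def SS (p q t : ℝ) : ℝ := π / 4 + p + q * cos (2 * π * t)

/-- The speed defect function. -/
def hh (l q t : ℝ) : ℝ := √(1 - (2 * π * q * sin (2 * π * t) / l) ^ 2)

/-- Derivative of the first phase. -/
def aD (l p q t : ℝ) : ℝ := l * hh l q t * (sin (SS p q t) / cos (SS p q t))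

/-- Derivative of the second phase (with opposite sign). -/
def bD (l p q t : ℝ) : ℝ := l * hh l q t * (cos (SS p q t) / sin (SS p q t))

/-- Twice the deviation of the latitude from `π / 4`. -/
def WW (p q t : ℝ) : ℝ := 2 * p + 2 * q * cos (2 * π * t)

/-- The domain of the parameters. -/
def Dom (p q : ℝ) : Prop := |p| ≤ 1 / 5 ∧ 0 ≤ q ∧ q ≤ 1 / 2

lemma pi_bounds : (3.14 : ℝ) < π ∧ π < 3.15 := ⟨pi_gt_d2, pi_lt_d2⟩

lemma SS_bounds {p q : ℝ} (h : Dom p q) (t : ℝ) :
    π / 4 - 7 / 10 ≤ SS p q t ∧ SS p q t ≤ π / 4 + 7 / 10 := by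
  obtain ⟨hp, hq0, hq1⟩ := h
  have hc1 := cos_le_one (2 * π * t)
  have hc2 := neg_one_le_cos (2 * π * t)
  have h1 := abs_le.mp hp
  unfold SS
  constructor <;> nlinarith

lemma SS_cos_pos {p q : ℝ} (h : Dom p q) (t : ℝ) : 0 < cos (SS p q t) := by
  obtain ⟨h1, h2⟩ := SS_bounds h t
  have := pi_bounds
  apply cos_pos_of_mem_Ioo
  constructor <;> linarith [this.1, this.2]

lemma SS_sin_pos {p q : ℝ} (h : Dom p q) (t : ℝ) : 0 < sin (SS p q t) := by
  obtain ⟨h1, h2⟩ := SS_bounds h t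
  have := pi_bounds
  apply sin_pos_of_pos_of_lt_pi <;> linarith [this.1, this.2]

lemma WW_bound {p q : ℝ} (h : Dom p q) (t : ℝ) : |WW p q t| ≤ 7 / 5 := by
  obtain ⟨hp, hq0, hq1⟩ := h
  have hc1 := cos_le_one (2 * π * t)
  have hc2 := neg_one_le_cos (2 * π * t)
  have h1 := abs_le.mp hp
  unfold WW
  rw [abs_le]
  constructor <;> nlinarith

lemma WW_cos_pos {p q : ℝ} (h : Dom p q) (t : ℝ) : 0 < cos (WW p q t) := by
  have h1 := abs_le.mp (WW_bound h t)
  have := pi_bounds
  apply cos_pos_of_mem_Ioo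
  constructor <;> linarith [this.1, this.2, h1.1, h1.2]

lemma SS_WW (p q t : ℝ) : SS p q t = π / 4 + WW p q t / 2 := by
  unfold SS WW; ring

lemma cos_WW (p q t : ℝ) : cos (WW p q t) = 2 * sin (SS p q t) * cos (SS p q t) := by
  have h : WW p q t = 2 * SS p q t - π / 2 := by rw [SS_WW]; ring
  rw [h, cos_sub, cos_two_mul, sin_two_mul, cos_pi_div_two, sin_pi_div_two]; ring

lemma sin_WW (p q t : ℝ) :
    sin (WW p q t) = sin (SS p q t) ^ 2 - cos (SS p q t) ^ 2 := by
  have h : WW p q t = 2 * SS p q t - π / 2 := by rw [SS_WW]; ring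
  rw [h, sin_sub, cos_two_mul, sin_two_mul, cos_pi_div_two, sin_pi_div_two]
  have := sin_sq_add_cos_sq (SS p q t)
  nlinarith

lemma hh_bounds {l q : ℝ} (hl : 1000 ≤ l) (hq0 : 0 ≤ q) (hq1 : q ≤ 1 / 2) (t : ℝ) :
    99 / 100 ≤ hh l q t ∧ hh l q t ≤ 1 := by
  have hlpos : 0 < l := by linarith
  have hs : (2 * π * q * sin (2 * π * t) / l) ^ 2 ≤ 1 / 10000 := by
    have h1 : |2 * π * q * sin (2 * π * t) / l| ≤ 1 / 100 := by
      rw [abs_div, abs_mul, abs_mul, abs_of_pos hlpos, abs_of_nonneg hq0,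
        abs_of_pos (by have := pi_pos; positivity : (0:ℝ) < 2 * π)]
      rw [div_le_iff₀ hlpos]
      have hs1 := abs_sin_le_one (2 * π * t)
      have hp := pi_bounds.2
      have hp0 := pi_pos
      have h2 : 2 * π * q ≤ 4 := by nlinarith
      have h3 : 2 * π * q * |sin (2 * π * t)| ≤ 4 :=
        le_trans (mul_le_of_le_one_right (by positivity) hs1) h2
      linarith
    have := abs_le.mp h1
    rw [← sq_abs]
    have h4 := sq_abs (2 * π * q * sin (2 * π * t) / l)
    nlinarith [abs_nonneg (2 * π * q * sin (2 * π * t) / l)]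
  unfold hh
  constructor
  · apply le_sqrt_of_sq_le
    nlinarith
  · exact Real.sqrt_le_iff.mpr ⟨by norm_num, by nlinarith [sq_nonneg (2 * π * q * sin (2 * π * t) / l)]⟩

lemma hh_pos {l q : ℝ} (hl : 1000 ≤ l) (hq0 : 0 ≤ q) (hq1 : q ≤ 1 / 2) (t : ℝ) : 0 < hh l q t := by
  have := (hh_bounds hl hq0 hq1 t).1
  linarith

/-- The radicand defining `hh` is positive. -/
lemma hh_radicand_pos {l q : ℝ} (hl : 1000 ≤ l) (hq0 : 0 ≤ q) (hq1 : q ≤ 1 / 2) (t : ℝ) :
    0 < 1 - (2 * π * q * sin (2 * π * t) / l) ^ 2 := by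
  have := hh_pos hl hq0 hq1 t
  unfold hh at this
  exact Real.sqrt_pos.mp this

lemma hh_sq {l q : ℝ} (hl : 1000 ≤ l) (hq0 : 0 ≤ q) (hq1 : q ≤ 1 / 2) (t : ℝ) :
    hh l q t ^ 2 = 1 - (2 * π * q * sin (2 * π * t) / l) ^ 2 :=
  Real.sq_sqrt (hh_radicand_pos hl hq0 hq1 t).le

lemma aD_sub_bD {p q : ℝ} (h : Dom p q) (l t : ℝ) :
    aD l p q t - bD l p q t = l * hh l q t * (2 * tan (WW p q t)) := by
  have h1 := SS_cos_pos h t
  have h2 := SS_sin_pos h t
  rw [tan_eq_sin_div_cos, sin_WW, cos_WW]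
  unfold aD bD
  field_simp

lemma aD_add_bD {p q : ℝ} (h : Dom p q) (l t : ℝ) :
    aD l p q t + bD l p q t = l * hh l q t * (2 / cos (WW p q t)) := by
  have h1 := SS_cos_pos h t
  have h2 := SS_sin_pos h t
  have h3 := sin_sq_add_cos_sq (SS p q t)
  rw [cos_WW]
  unfold aD bD
  field_simp
  rw [h3, mul_one]

/-- clamp of the first parameter -/
def clP (p : ℝ) : ℝ := max (-(1 / 5)) (min (1 / 5) p)

/-- clamp of the second parameter -/
def clQ (q : ℝ) : ℝ := max 0 (min (1 / 2) q)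

lemma continuous_clP : Continuous clP := by unfold clP; fun_prop

lemma continuous_clQ : Continuous clQ := by unfold clQ; fun_prop

lemma clP_dom (p : ℝ) : |clP p| ≤ 1 / 5 := by
  unfold clP
  rw [abs_le]
  constructor
  · exact le_max_left _ _
  · exact max_le (by norm_num) (min_le_left _ _)

lemma clQ_nonneg (q : ℝ) : 0 ≤ clQ q := le_max_left _ _

lemma clQ_le (q : ℝ) : clQ q ≤ 1 / 2 := max_le (by norm_num) (min_le_left _ _)

lemma cl_dom (p q : ℝ) : Dom (clP p) (clQ q) := ⟨clP_dom p, clQ_nonneg q, clQ_le q⟩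

lemma clP_of_mem {p : ℝ} (h : |p| ≤ 1 / 5) : clP p = p := by
  have := abs_le.mp h
  unfold clP
  rw [min_eq_right this.2, max_eq_right this.1]

lemma clQ_of_mem {q : ℝ} (h0 : 0 ≤ q) (h1 : q ≤ 1 / 2) : clQ q = q := by
  unfold clQ
  rw [min_eq_right h1, max_eq_right h0]

lemma continuous_hh_cl {l : ℝ} :
    Continuous fun z : (ℝ × ℝ) × ℝ => hh l (clQ z.1.2) z.2 := by
  unfold hh
  have := continuous_clQ
  fun_prop

lemma continuous_SS_cl : Continuous fun z : (ℝ × ℝ) × ℝ => SS (clP z.1.1) (clQ z.1.2) z.2 := by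
  unfold SS
  have := continuous_clQ
  have := continuous_clP
  fun_prop

lemma continuous_aD_cl {l : ℝ} :
    Continuous fun z : (ℝ × ℝ) × ℝ => aD l (clP z.1.1) (clQ z.1.2) z.2 := by
  unfold aD
  refine ((continuous_const.mul continuous_hh_cl)).mul ?_
  refine Continuous.div (continuous_sin.comp continuous_SS_cl)
    (continuous_cos.comp continuous_SS_cl) ?_
  intro z
  exact (SS_cos_pos (cl_dom _ _) _).ne'

lemma continuous_bD_cl {l : ℝ} :
    Continuous fun z : (ℝ × ℝ) × ℝ => bD l (clP z.1.1) (clQ z.1.2) z.2 := by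
  unfold bD
  refine ((continuous_const.mul continuous_hh_cl)).mul ?_
  refine Continuous.div (continuous_cos.comp continuous_SS_cl)
    (continuous_sin.comp continuous_SS_cl) ?_
  intro z
  exact (SS_sin_pos (cl_dom _ _) _).ne'

lemma continuous_aD_t {l p q : ℝ} (hl : 1000 ≤ l) (h : Dom p q) :
    Continuous fun t => aD l p q t := by
  have h1 := (continuous_aD_cl (l := l)).comp (Continuous.prodMk (continuous_const (y := (p, q))) continuous_id)
  simp only [Function.comp_def] at h1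
  simpa [clP_of_mem h.1, clQ_of_mem h.2.1 h.2.2] using h1

lemma continuous_bD_t {l p q : ℝ} (hl : 1000 ≤ l) (h : Dom p q) :
    Continuous fun t => bD l p q t := by
  have h1 := (continuous_bD_cl (l := l)).comp (Continuous.prodMk (continuous_const (y := (p, q))) continuous_id)
  simp only [Function.comp_def] at h1
  simpa [clP_of_mem h.1, clQ_of_mem h.2.1 h.2.2] using h1

/-- The difference of the two phases, as a function of the clamped parameters. -/
def G1 (l p q : ℝ) : ℝ := ∫ t in (0:ℝ)..1, (aD l (clP p) (clQ q) t - bD l (clP p) (clQ q) t)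

/-- The sum of the two phases, as a function of the clamped parameters. -/
def G2 (l p q : ℝ) : ℝ := ∫ t in (0:ℝ)..1, (aD l (clP p) (clQ q) t + bD l (clP p) (clQ q) t)

lemma continuous_G1 {l : ℝ} (hl : 1000 ≤ l) : Continuous (Function.uncurry (G1 l)) := by
  have : Continuous fun x : ℝ × ℝ =>
      ∫ t in (0:ℝ)..1, (aD l (clP x.1) (clQ x.2) t - bD l (clP x.1) (clQ x.2) t) := by
    apply intervalIntegral.continuous_parametric_intervalIntegral_of_continuous'
    exact continuous_aD_cl.sub continuous_bD_cl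
  exact this

lemma continuous_G2 {l : ℝ} (hl : 1000 ≤ l) : Continuous (Function.uncurry (G2 l)) := by
  have : Continuous fun x : ℝ × ℝ =>
      ∫ t in (0:ℝ)..1, (aD l (clP x.1) (clQ x.2) t + bD l (clP x.1) (clQ x.2) t) := by
    apply intervalIntegral.continuous_parametric_intervalIntegral_of_continuous'
    exact continuous_aD_cl.add continuous_bD_cl
  exact this

lemma integral_sq_cos (p : ℝ) :
    ∫ t in (0:ℝ)..1, (2 * p + cos (2 * π * t)) ^ 2 = 4 * p ^ 2 + 1 / 2 := by
  have hpi : π ≠ 0 := pi_ne_zero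
  have hderiv : ∀ t ∈ uIcc (0:ℝ) 1, HasDerivAt
      (fun t => 4 * p ^ 2 * t + 4 * p * (sin (2 * π * t) / (2 * π)) + t / 2
        + sin (4 * π * t) / (8 * π))
      ((2 * p + cos (2 * π * t)) ^ 2) t := by
    intro t _
    have h1 : HasDerivAt (fun t : ℝ => sin (2 * π * t)) (cos (2 * π * t) * (2 * π)) t := by
      simpa using ((hasDerivAt_id' t).const_mul (2 * π)).sin
    have h2 : HasDerivAt (fun t : ℝ => sin (4 * π * t)) (cos (4 * π * t) * (4 * π)) t := by
      simpa using ((hasDerivAt_id' t).const_mul (4 * π)).sin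
    have h3 := (((hasDerivAt_id' t).const_mul (4 * p ^ 2)).add
      ((h1.div_const (2 * π)).const_mul (4 * p))).add ((hasDerivAt_id' t).div_const 2)
    have h4 := h3.add (h2.div_const (8 * π))
    have hc : cos (4 * π * t) = 2 * cos (2 * π * t) ^ 2 - 1 := by
      rw [← cos_two_mul]; ring_nf
    refine h4.congr_deriv ?_
    rw [hc]
    field_simp
    ring
  have hcont : Continuous fun t : ℝ => (2 * p + cos (2 * π * t)) ^ 2 := by fun_prop
  rw [intervalIntegral.integral_eq_sub_of_hasDerivAt hderiv (hcont.intervalIntegrable _ _)]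
  have hs2 : sin (4 * π) = 0 := by
    have : (4 * π : ℝ) = 2 * (2 * π) := by ring
    rw [this, sin_two_mul, sin_two_pi]; ring
  simp only [hs2, sin_two_pi, mul_zero, sin_zero, zero_div, add_zero, mul_one]
  ring

lemma cos_mul_le_one {W : ℝ} (h : |W| ≤ 7 / 5) : cos W * (1 + 36 / 100 * W ^ 2) ≤ 1 := by
  have hp := pi_bounds
  have h1 := abs_le.mp h
  have hc := cos_le_one_div_sqrt_sq_add_one (x := W) (by linarith [hp.1]) (by linarith [hp.1])
  have hW2 : W ^ 2 ≤ 49 / 25 := by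
    have := sq_abs W
    nlinarith [abs_nonneg W]
  have h2 : 1 + 36 / 100 * W ^ 2 ≤ √(W ^ 2 + 1) := by
    apply le_sqrt_of_sq_le
    nlinarith [sq_nonneg W]
  have h3 : 0 < √(W ^ 2 + 1) := by positivity
  have h4 : 0 ≤ 1 + 36 / 100 * W ^ 2 := by positivity
  calc cos W * (1 + 36 / 100 * W ^ 2) ≤ (1 / √(W ^ 2 + 1)) * (1 + 36 / 100 * W ^ 2) :=
        mul_le_mul_of_nonneg_right hc h4
    _ ≤ (1 / √(W ^ 2 + 1)) * √(W ^ 2 + 1) := mul_le_mul_of_nonneg_left h2 (by positivity)
    _ = 1 := by field_simp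

lemma dom_cl_eq {l p q : ℝ} (h : Dom p q) : G1 l p q
    = ∫ t in (0:ℝ)..1, (aD l p q t - bD l p q t) := by
  unfold G1
  rw [clP_of_mem h.1, clQ_of_mem h.2.1 h.2.2]

lemma dom_cl_eq2 {l p q : ℝ} (h : Dom p q) : G2 l p q
    = ∫ t in (0:ℝ)..1, (aD l p q t + bD l p q t) := by
  unfold G2
  rw [clP_of_mem h.1, clQ_of_mem h.2.1 h.2.2]

lemma G2_zero_le {l p : ℝ} (hl : 1000 ≤ l) (hp : |p| ≤ 1 / 5) : G2 l p 0 ≤ 218 / 100 * l := by
  have hd : Dom p 0 := ⟨hp, le_rfl, by norm_num⟩
  rw [dom_cl_eq2 hd]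
  have hWW : ∀ t, WW p 0 t = 2 * p := fun t => by simp [WW]
  have hhh : ∀ t, hh l 0 t = 1 := fun t => by simp [hh]
  have hval : ∀ t, aD l p 0 t + bD l p 0 t = l * (2 / cos (2 * p)) := by
    intro t
    rw [aD_add_bD hd, hWW, hhh, mul_one]
  simp only [hval]
  rw [intervalIntegral.integral_const]
  simp only [sub_zero, one_smul]
  have h1 := abs_le.mp hp
  have hc : 92 / 100 ≤ cos (2 * p) := by
    have := Real.one_sub_sq_div_two_le_cos (x := 2 * p)
    nlinarith
  have hlpos : 0 < l := by linarith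
  have h2 : 2 / cos (2 * p) ≤ 218 / 100 := by
    rw [div_le_iff₀ (by linarith)]
    linarith
  nlinarith

lemma G2_half_ge {l p : ℝ} (hl : 1000 ≤ l) (hp : |p| ≤ 1 / 5) :
    233 / 100 * l ≤ G2 l p (1 / 2) := by
  have hd : Dom p (1 / 2) := ⟨hp, by norm_num, le_rfl⟩
  rw [dom_cl_eq2 hd]
  have hlpos : 0 < l := by linarith
  have hpt : ∀ t, l * (99 / 100) * 2 * (1 + 36 / 100 * (2 * p + cos (2 * π * t)) ^ 2)
      ≤ aD l p (1 / 2) t + bD l p (1 / 2) t := by
    intro t
    rw [aD_add_bD hd]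
    have hW : WW p (1 / 2) t = 2 * p + cos (2 * π * t) := by unfold WW; ring
    have h1 := WW_bound hd t
    have h2 := cos_mul_le_one h1
    have h3 := WW_cos_pos hd t
    rw [hW] at h2 h3
    rw [hW]
    have h4 := (hh_bounds hl (by norm_num : (0:ℝ) ≤ 1 / 2) le_rfl t).1
    have h5 : 1 + 36 / 100 * (2 * p + cos (2 * π * t)) ^ 2 ≤ 1 / cos (2 * p + cos (2 * π * t)) := by
      rw [le_div_iff₀ h3]
      linarith
    have h6 : 2 / cos (2 * p + cos (2 * π * t)) = 2 * (1 / cos (2 * p + cos (2 * π * t))) := by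
      ring
    rw [h6]
    have h7 : 0 ≤ 1 + 36 / 100 * (2 * p + cos (2 * π * t)) ^ 2 := by positivity
    calc l * (99 / 100) * 2 * (1 + 36 / 100 * (2 * p + cos (2 * π * t)) ^ 2)
        = l * (99 / 100) * (2 * (1 + 36 / 100 * (2 * p + cos (2 * π * t)) ^ 2)) := by ring
      _ ≤ l * hh l (1 / 2) t * (2 * (1 + 36 / 100 * (2 * p + cos (2 * π * t)) ^ 2)) := by
          apply mul_le_mul_of_nonneg_right _ (by positivity)
          exact mul_le_mul_of_nonneg_left h4 hlpos.le
      _ ≤ l * hh l (1 / 2) t * (2 * (1 / cos (2 * p + cos (2 * π * t)))) := by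
          apply mul_le_mul_of_nonneg_left _ (by have := hh_pos hl (by norm_num : (0:ℝ) ≤ 1 / 2) le_rfl t; positivity)
          linarith
  have hc1 : Continuous fun t : ℝ =>
      l * (99 / 100) * 2 * (1 + 36 / 100 * (2 * p + cos (2 * π * t)) ^ 2) := by fun_prop
  have hc2 : Continuous fun t : ℝ => aD l p (1 / 2) t + bD l p (1 / 2) t :=
    (continuous_aD_t hl hd).add (continuous_bD_t hl hd)
  have hmono : ∫ t in (0:ℝ)..1,
        l * (99 / 100) * 2 * (1 + 36 / 100 * (2 * p + cos (2 * π * t)) ^ 2)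
      ≤ ∫ t in (0:ℝ)..1, (aD l p (1 / 2) t + bD l p (1 / 2) t) :=
    intervalIntegral.integral_mono_on (by norm_num : (0:ℝ) ≤ 1)
      (hc1.intervalIntegrable _ _) (hc2.intervalIntegrable _ _) (fun t _ => hpt t)
  have hval : ∫ t in (0:ℝ)..1, l * (99 / 100) * 2 * (1 + 36 / 100 * (2 * p + cos (2 * π * t)) ^ 2)
      = l * (99 / 100) * 2 * (1 + 36 / 100 * (4 * p ^ 2 + 1 / 2)) := by
    rw [intervalIntegral.integral_const_mul]
    congr 1
    rw [intervalIntegral.integral_add (continuous_const.intervalIntegrable _ _)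
      ((by fun_prop : Continuous fun t : ℝ =>
        (36:ℝ) / 100 * (2 * p + cos (2 * π * t)) ^ 2).intervalIntegrable _ _)]
    rw [intervalIntegral.integral_const_mul, integral_sq_cos]
    simp
  rw [hval] at hmono
  nlinarith [sq_nonneg p]

/-- The key trigonometric inequality for the symmetrisation. -/
lemma tan_add_tan_sub_ge {a b : ℝ} (ha : 0 < a) (hb : a + |b| < π / 2) :
    2 * a ≤ tan (a + b) + tan (a - b) := by
  have hb1 := abs_le.mp (le_refl |b|)
  have h1 : 0 < cos (a + b) := cos_pos_of_mem_Ioo ⟨by linarith, by linarith⟩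
  have h2 : 0 < cos (a - b) := cos_pos_of_mem_Ioo ⟨by linarith, by linarith⟩
  have h3 : 0 < cos a := cos_pos_of_mem_Ioo ⟨by linarith [abs_nonneg b, pi_pos], by
    linarith [abs_nonneg b]⟩
  have hsum : tan (a + b) + tan (a - b) = sin (2 * a) / (cos (a + b) * cos (a - b)) := by
    rw [tan_eq_sin_div_cos, tan_eq_sin_div_cos]
    have : sin (2 * a) = sin (a + b) * cos (a - b) + sin (a - b) * cos (a + b) := by
      rw [show 2 * a = (a + b) + (a - b) by ring, sin_add]
      ring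
    rw [this]
    field_simp
  have hprod : cos (a + b) * cos (a - b) ≤ cos a ^ 2 := by
    rw [cos_add, cos_sub]
    have h4 := sin_sq_add_cos_sq b
    have h5 := sin_sq_add_cos_sq a
    nlinarith [mul_nonneg (sq_nonneg (sin a)) (sq_nonneg (sin b)), sq_nonneg (sin b),
      mul_nonneg (sq_nonneg (cos a)) (sq_nonneg (sin b))]
  have hsa : 0 < sin a := sin_pos_of_pos_of_lt_pi ha (by linarith [abs_nonneg b, pi_pos])
  have h6 : 0 < sin (2 * a) := by
    rw [sin_two_mul]; positivity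
  have h7 : 2 * tan a ≤ tan (a + b) + tan (a - b) := by
    rw [hsum, tan_eq_sin_div_cos, le_div_iff₀ (by positivity), sin_two_mul]
    have h8 : 0 ≤ 2 * sin a / cos a := by positivity
    calc 2 * (sin a / cos a) * (cos (a + b) * cos (a - b))
        ≤ 2 * (sin a / cos a) * cos a ^ 2 := by
          apply mul_le_mul_of_nonneg_left hprod
          positivity
      _ = 2 * sin a * cos a := by field_simp
  have h9 : a < tan a := lt_tan ha (by linarith [abs_nonneg b])
  linarith

lemma WW_shift (p q t : ℝ) : WW p q (t + 1 / 2) = 2 * p - 2 * q * cos (2 * π * t) := by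
  have : 2 * π * (t + 1 / 2) = 2 * π * t + π := by ring
  unfold WW
  rw [this, cos_add_pi]
  ring

lemma hh_shift (l q t : ℝ) : hh l q (t + 1 / 2) = hh l q t := by
  have : 2 * π * (t + 1 / 2) = 2 * π * t + π := by ring
  unfold hh
  rw [this, sin_add_pi]
  congr 1
  ring

lemma WW_one (p q t : ℝ) : WW p q (t + 1) = WW p q t := by
  have : 2 * π * (t + 1) = 2 * π * t + 2 * π := by ring
  unfold WW
  rw [this, cos_add_two_pi]

lemma hh_one (l q t : ℝ) : hh l q (t + 1) = hh l q t := by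
  have : 2 * π * (t + 1) = 2 * π * t + 2 * π := by ring
  unfold hh
  rw [this, sin_add_two_pi]

lemma SS_one (p q t : ℝ) : SS p q (t + 1) = SS p q t := by
  rw [SS_WW, SS_WW, WW_one]

lemma aD_one (l p q t : ℝ) : aD l p q (t + 1) = aD l p q t := by
  unfold aD; rw [hh_one, SS_one]

lemma bD_one (l p q t : ℝ) : bD l p q (t + 1) = bD l p q t := by
  unfold bD; rw [hh_one, SS_one]

/-- Halving trick for a one-periodic function. -/
lemma integral_half_shift {g : ℝ → ℝ} (hg : Continuous g) (hper : ∀ t, g (t + 1) = g t) :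
    ∫ t in (0:ℝ)..1, (g t + g (t + 1 / 2)) = 2 * ∫ t in (0:ℝ)..1, g t := by
  have hcont2 : Continuous fun t => g (t + 1 / 2) := by fun_prop
  rw [intervalIntegral.integral_add (hg.intervalIntegrable _ _) (hcont2.intervalIntegrable _ _)]
  have hp : Function.Periodic g 1 := hper
  have h1 : ∫ t in (0:ℝ)..1, g (t + 1 / 2) = ∫ t in (0:ℝ)..1, g t := by
    rw [intervalIntegral.integral_comp_add_right (fun t => g t) (1 / 2)]
    have := hp.intervalIntegral_add_eq (0 + 1 / 2) 0
    simpa [add_comm] using this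
  rw [h1]; ring

lemma G1_pos_bound {l q : ℝ} (hl : 1000 ≤ l) (hq0 : 0 ≤ q) (hq1 : q ≤ 1 / 2) :
    79 / 100 * l ≤ G1 l (1 / 5) q := by
  have hd : Dom (1 / 5) q := ⟨by norm_num [abs_of_pos], hq0, hq1⟩
  rw [dom_cl_eq hd]
  have hlpos : 0 < l := by linarith
  set g : ℝ → ℝ := fun t => aD l (1 / 5) q t - bD l (1 / 5) q t with hg
  have hgc : Continuous g := (continuous_aD_t hl hd).sub (continuous_bD_t hl hd)
  have hgper : ∀ t, g (t + 1) = g t := fun t => by simp only [hg, aD_one, bD_one]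
  have hhalf := integral_half_shift hgc hgper
  have hpt : ∀ t, l * (99 / 100) * (8 / 5) ≤ g t + g (t + 1 / 2) := by
    intro t
    simp only [hg]
    rw [aD_sub_bD hd, aD_sub_bD hd, WW_shift, hh_shift]
    have hW : WW (1 / 5) q t = 2 / 5 + 2 * q * cos (2 * π * t) := by unfold WW; ring
    have hW2 : 2 * (1 / 5) - 2 * q * cos (2 * π * t) = 2 / 5 - 2 * q * cos (2 * π * t) := by ring
    rw [hW, hW2]
    have hb : (2:ℝ) / 5 + |2 * q * cos (2 * π * t)| < π / 2 := by
      have h1 := abs_cos_le_one (2 * π * t)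
      rw [abs_mul, abs_mul, abs_of_nonneg hq0]
      have := pi_bounds.1
      norm_num
      nlinarith
    have h3 := tan_add_tan_sub_ge (by norm_num : (0:ℝ) < 2 / 5) hb
    have h4 := (hh_bounds hl hq0 hq1 t).1
    have h5 : 0 < hh l q t := by linarith
    nlinarith [mul_pos hlpos h5, mul_le_mul_of_nonneg_left h4 hlpos.le]
  have hc1 : Continuous fun t : ℝ => g t + g (t + 1 / 2) := by fun_prop
  have hmono : ∫ _t in (0:ℝ)..1, (l * (99 / 100) * (8 / 5))
      ≤ ∫ t in (0:ℝ)..1, (g t + g (t + 1 / 2)) :=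
    intervalIntegral.integral_mono_on (by norm_num : (0:ℝ) ≤ 1)
      (continuous_const.intervalIntegrable _ _)
      (hc1.intervalIntegrable _ _) (fun t _ => hpt t)
  rw [hhalf] at hmono
  simp only [intervalIntegral.integral_const, sub_zero, one_smul] at hmono
  nlinarith

lemma G1_neg_bound {l q : ℝ} (hl : 1000 ≤ l) (hq0 : 0 ≤ q) (hq1 : q ≤ 1 / 2) :
    G1 l (-(1 / 5)) q ≤ - (79 / 100 * l) := by
  have hd : Dom (-(1 / 5)) q := ⟨by norm_num [abs_of_pos], hq0, hq1⟩
  rw [dom_cl_eq hd]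
  have hlpos : 0 < l := by linarith
  set g : ℝ → ℝ := fun t => aD l (-(1 / 5)) q t - bD l (-(1 / 5)) q t with hg
  have hgc : Continuous g := (continuous_aD_t hl hd).sub (continuous_bD_t hl hd)
  have hgper : ∀ t, g (t + 1) = g t := fun t => by simp only [hg, aD_one, bD_one]
  have hhalf := integral_half_shift hgc hgper
  have hpt : ∀ t, g t + g (t + 1 / 2) ≤ - (l * (99 / 100) * (8 / 5)) := by
    intro t
    simp only [hg]
    rw [aD_sub_bD hd, aD_sub_bD hd, WW_shift, hh_shift]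
    have hW : WW (-(1 / 5)) q t = - (2 / 5 - 2 * q * cos (2 * π * t)) := by unfold WW; ring
    have hW2 : 2 * (-(1 / 5)) - 2 * q * cos (2 * π * t)
        = - (2 / 5 + 2 * q * cos (2 * π * t)) := by ring
    rw [hW, hW2, tan_neg, tan_neg]
    have hb : (2:ℝ) / 5 + |2 * q * cos (2 * π * t)| < π / 2 := by
      have h1 := abs_cos_le_one (2 * π * t)
      rw [abs_mul, abs_mul, abs_of_nonneg hq0]
      have := pi_bounds.1
      norm_num
      nlinarith
    have h3 := tan_add_tan_sub_ge (by norm_num : (0:ℝ) < 2 / 5) hb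
    have h4 := (hh_bounds hl hq0 hq1 t).1
    have h5 : 0 < hh l q t := by linarith
    nlinarith [mul_pos hlpos h5, mul_le_mul_of_nonneg_left h4 hlpos.le]
  have hc1 : Continuous fun t : ℝ => g t + g (t + 1 / 2) := by fun_prop
  have hmono : ∫ t in (0:ℝ)..1, (g t + g (t + 1 / 2))
      ≤ ∫ _t in (0:ℝ)..1, (-(l * (99 / 100) * (8 / 5))) :=
    intervalIntegral.integral_mono_on (by norm_num : (0:ℝ) ≤ 1)
      (hc1.intervalIntegrable _ _) (continuous_const.intervalIntegrable _ _)
      (fun t _ => hpt t)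
  rw [hhalf] at hmono
  simp only [intervalIntegral.integral_const, sub_zero, one_smul] at hmono
  nlinarith

lemma G1_strictMono {l q : ℝ} (hl : 1000 ≤ l) (hq0 : 0 ≤ q) (hq1 : q ≤ 1 / 2) :
    StrictMonoOn (fun p => G1 l p q) (Icc (-(1 / 5)) (1 / 5)) := by
  intro p₁ hp₁ p₂ hp₂ hlt
  have hd₁ : Dom p₁ q := ⟨abs_le.mpr hp₁, hq0, hq1⟩
  have hd₂ : Dom p₂ q := ⟨abs_le.mpr hp₂, hq0, hq1⟩
  simp only
  rw [dom_cl_eq hd₁, dom_cl_eq hd₂]
  have hc₁ : Continuous fun t => aD l p₁ q t - bD l p₁ q t :=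
    (continuous_aD_t hl hd₁).sub (continuous_bD_t hl hd₁)
  have hc₂ : Continuous fun t => aD l p₂ q t - bD l p₂ q t :=
    (continuous_aD_t hl hd₂).sub (continuous_bD_t hl hd₂)
  have hdiff : 0 < ∫ t in (0:ℝ)..1,
      ((aD l p₂ q t - bD l p₂ q t) - (aD l p₁ q t - bD l p₁ q t)) := by
    apply intervalIntegral.intervalIntegral_pos_of_pos_on
    · exact (hc₂.sub hc₁).intervalIntegrable _ _
    · intro t _
      rw [aD_sub_bD hd₁, aD_sub_bD hd₂]
      have hW1 := abs_le.mp (WW_bound hd₁ t)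
      have hW2 := abs_le.mp (WW_bound hd₂ t)
      have hp := pi_bounds
      have hlt2 : WW p₁ q t < WW p₂ q t := by unfold WW; linarith
      have htan : tan (WW p₁ q t) < tan (WW p₂ q t) :=
        tan_lt_tan_of_lt_of_lt_pi_div_two (by linarith [hW1.1, hp.1])
          (by linarith [hW2.2, hp.1]) hlt2
      have h5 := hh_pos hl hq0 hq1 t
      have hlpos : 0 < l := by linarith
      have : l * hh l q t * (2 * tan (WW p₂ q t)) - l * hh l q t * (2 * tan (WW p₁ q t))
          = l * hh l q t * 2 * (tan (WW p₂ q t) - tan (WW p₁ q t)) := by ring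
      rw [this]
      have h6 : 0 < tan (WW p₂ q t) - tan (WW p₁ q t) := by linarith
      positivity
    · norm_num
  rw [intervalIntegral.integral_sub (hc₂.intervalIntegrable _ _)
    (hc₁.intervalIntegrable _ _)] at hdiff
  linarith

/-- **Existence of the closed curve with prescribed length and holonomy.** -/
theorem exists_closure {l θ : ℝ} (hl : 1000 ≤ l) (hθ0 : 0 ≤ θ) (hθ : θ < 2 * π) :
    ∃ (p q : ℝ) (n : ℤ), Dom p q ∧
      ∫ t in (0:ℝ)..1, aD l p q t = θ + 2 * π * n ∧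
      ∫ t in (0:ℝ)..1, bD l p q t = - θ + 2 * π * n := by
  have hp := pi_bounds
  have hpi0 := pi_pos
  have hlpos : 0 < l := by linarith
  -- the integer
  obtain ⟨n, hn⟩ : ∃ n : ℤ, n = ⌈218 / 100 * l / (4 * π)⌉ := ⟨_, rfl⟩
  have hn1 : 218 / 100 * l ≤ 4 * π * n := by
    have := Int.le_ceil (218 / 100 * l / (4 * π))
    rw [div_le_iff₀ (by positivity), ← hn] at this
    linarith
  have hn2 : 4 * π * n ≤ 233 / 100 * l := by
    have := Int.ceil_lt_add_one (218 / 100 * l / (4 * π))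
    rw [← hn] at this
    have h2 : (n : ℝ) * (4 * π) < (218 / 100 * l / (4 * π) + 1) * (4 * π) :=
      mul_lt_mul_of_pos_right this (by positivity)
    have h3 : (218 / 100 * l / (4 * π) + 1) * (4 * π) = 218 / 100 * l + 4 * π := by
      field_simp
    nlinarith
  obtain ⟨p, hp', q, hq', h1, h2⟩ := miranda (G1 l) (G2 l) (continuous_G1 hl) (continuous_G2 hl)
    (1 / 5) (1 / 2) (2 * θ) (4 * π * n) (by norm_num) (by norm_num)
    (fun q hq => G1_strictMono hl hq.1 hq.2)
    (fun q hq => ⟨by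
        have := G1_neg_bound hl hq.1 hq.2
        nlinarith, by
        have := G1_pos_bound hl hq.1 hq.2
        nlinarith⟩)
    (fun p hp _ => le_trans (G2_zero_le hl (abs_le.mpr hp)) hn1)
    (fun p hp _ => le_trans hn2 (G2_half_ge hl (abs_le.mpr hp)))
  have hd : Dom p q := ⟨abs_le.mpr hp', hq'.1, hq'.2⟩
  rw [dom_cl_eq hd] at h1
  rw [dom_cl_eq2 hd] at h2
  have hA : IntervalIntegrable (fun t => aD l p q t) volume 0 1 :=
    (continuous_aD_t hl hd).intervalIntegrable 0 1
  have hB : IntervalIntegrable (fun t => bD l p q t) volume 0 1 :=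
    (continuous_bD_t hl hd).intervalIntegrable 0 1
  rw [intervalIntegral.integral_sub hA hB] at h1
  rw [intervalIntegral.integral_add hA hB] at h2
  refine ⟨p, q, n, hd, ?_, ?_⟩ <;> linarith

end

end Vale.Agent.Lib.P205
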