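import Vale.Agent.Lib.P205.Closure

/-!
Smooth isometric immersions into `ℝ⁴` of the metrics `dx² + f(x)² dy²` on arbitrary tori.
-/

namespace Vale.Agent.Lib.P205

open Real Set intervalIntegral MeasureTheory
open scoped ContDiff

noncomputable section

lemma contDiff_SS (p q : ℝ) : ContDiff ℝ ∞ (fun t => SS p q t) := by
  unfold SS
  fun_prop

lemma contDiff_hh {l q : ℝ} (hl : 1000 ≤ l) (hq0 : 0 ≤ q) (hq1 : q ≤ 1 / 2) :
    ContDiff ℝ ∞ (fun t => hh l q t) := by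
  unfold hh
  refine ContDiff.sqrt (by fun_prop) (fun t => (hh_radicand_pos hl hq0 hq1 t).ne')

lemma contDiff_aD {l p q : ℝ} (hl : 1000 ≤ l) (h : Dom p q) :
    ContDiff ℝ ∞ (fun t => aD l p q t) := by
  unfold aD
  refine (contDiff_const.mul (contDiff_hh hl h.2.1 h.2.2)).mul ?_
  refine ContDiff.div ((contDiff_SS p q).sin) ((contDiff_SS p q).cos) ?_
  exact fun t => (SS_cos_pos h t).ne'

lemma contDiff_bD {l p q : ℝ} (hl : 1000 ≤ l) (h : Dom p q) :
    ContDiff ℝ ∞ (fun t => bD l p q t) := by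
  unfold bD
  refine (contDiff_const.mul (contDiff_hh hl h.2.1 h.2.2)).mul ?_
  refine ContDiff.div ((contDiff_SS p q).cos) ((contDiff_SS p q).sin) ?_
  exact fun t => (SS_sin_pos h t).ne'

lemma hasDerivAt_primitive {g : ℝ → ℝ} (hg : Continuous g) (t : ℝ) :
    HasDerivAt (fun t => ∫ s in (0:ℝ)..t, g s) (g t) t :=
  intervalIntegral.integral_hasDerivAt_right (hg.intervalIntegrable _ _)
    (hg.stronglyMeasurableAtFilter _ _) hg.continuousAt

lemma contDiff_primitive {g : ℝ → ℝ} (hg : ContDiff ℝ ∞ g) :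
    ContDiff ℝ ∞ (fun t => ∫ s in (0:ℝ)..t, g s) := by
  rw [contDiff_infty_iff_deriv]
  have hc : Continuous g := hg.continuous
  refine ⟨fun t => (hasDerivAt_primitive hc t).differentiableAt, ?_⟩
  have : deriv (fun t => ∫ s in (0:ℝ)..t, g s) = g :=
    funext fun t => (hasDerivAt_primitive hc t).deriv
  rw [this]
  exact hg

lemma primitive_add_period {g : ℝ → ℝ} (hg : Continuous g) {T : ℝ} (hper : ∀ t, g (t + T) = g t)
    (t : ℝ) : ∫ s in (0:ℝ)..(t + T), g s = (∫ s in (0:ℝ)..t, g s) + ∫ s in (0:ℝ)..T, g s := by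
  have hp : Function.Periodic g T := hper
  have := hp.intervalIntegral_add_eq_add 0 t (fun a b => hg.intervalIntegrable a b)
  simpa using this

/-- Pure algebra behind the metric computation. -/
lemma metric_algebra (cS sS c1 s1 c2 s2 φ φ' G E1 E2 w ρ g h : ℝ)
    (hS : cS ^ 2 + sS ^ 2 = 1) (h1 : c1 ^ 2 + s1 ^ 2 = 1) (h2 : c2 ^ 2 + s2 ^ 2 = 1)
    (hgh : g ^ 2 + h ^ 2 = 1) (hG : G = ρ * g) (hE1 : cS * E1 = ρ * h * sS)
    (hE2 : sS * E2 = - (ρ * h * cS)) (hunit : φ' ^ 2 + φ ^ 2 * ρ ^ 2 = 1) :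
    ((φ' * cS - φ * sS * G) * c1 - φ * cS * E1 * s1) ^ 2
      + ((φ' * cS - φ * sS * G) * s1 + φ * cS * E1 * c1) ^ 2
      + ((φ' * sS + φ * cS * G) * c2 - φ * sS * E2 * s2) ^ 2
      + ((φ' * sS + φ * cS * G) * s2 + φ * sS * E2 * c2) ^ 2 = 1 ∧
    ((φ' * cS - φ * sS * G) * c1 - φ * cS * E1 * s1) * (- (w * φ * cS * s1))
      + ((φ' * cS - φ * sS * G) * s1 + φ * cS * E1 * c1) * (w * φ * cS * c1)
      + ((φ' * sS + φ * cS * G) * c2 - φ * sS * E2 * s2) * (- (w * φ * sS * s2))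
      + ((φ' * sS + φ * cS * G) * s2 + φ * sS * E2 * c2) * (w * φ * sS * c2) = 0 ∧
    (- (w * φ * cS * s1)) ^ 2 + (w * φ * cS * c1) ^ 2 + (- (w * φ * sS * s2)) ^ 2
      + (w * φ * sS * c2) ^ 2 = (w * φ) ^ 2 := by
  refine ⟨?_, ?_, ?_⟩
  · have e3 : ((φ' * cS - φ * sS * G) * c1 - φ * cS * E1 * s1) ^ 2
      + ((φ' * cS - φ * sS * G) * s1 + φ * cS * E1 * c1) ^ 2
      + ((φ' * sS + φ * cS * G) * c2 - φ * sS * E2 * s2) ^ 2
      + ((φ' * sS + φ * cS * G) * s2 + φ * sS * E2 * c2) ^ 2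
      = (φ' ^ 2 + φ ^ 2 * G ^ 2 + φ ^ 2 * ρ ^ 2 * h ^ 2) * (cS ^ 2 + sS ^ 2) := by
      calc _ = ((φ' * cS - φ * sS * G) ^ 2 + φ ^ 2 * (cS * E1) ^ 2) * (c1 ^ 2 + s1 ^ 2)
            + ((φ' * sS + φ * cS * G) ^ 2 + φ ^ 2 * (sS * E2) ^ 2) * (c2 ^ 2 + s2 ^ 2) := by ring
        _ = _ := by
          rw [h1, h2, hE1, hE2]
          ring
    rw [e3, hS, hG]
    have : φ' ^ 2 + φ ^ 2 * (ρ * g) ^ 2 + φ ^ 2 * ρ ^ 2 * h ^ 2
        = φ' ^ 2 + φ ^ 2 * ρ ^ 2 * (g ^ 2 + h ^ 2) := by ring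
    rw [this, hgh]
    linarith
  · have e1 : ((φ' * cS - φ * sS * G) * c1 - φ * cS * E1 * s1) * (- (w * φ * cS * s1))
        + ((φ' * cS - φ * sS * G) * s1 + φ * cS * E1 * c1) * (w * φ * cS * c1)
        = w * φ ^ 2 * cS * (cS * E1) * (c1 ^ 2 + s1 ^ 2) := by ring
    have e2 : ((φ' * sS + φ * cS * G) * c2 - φ * sS * E2 * s2) * (- (w * φ * sS * s2))
        + ((φ' * sS + φ * cS * G) * s2 + φ * sS * E2 * c2) * (w * φ * sS * c2)
        = w * φ ^ 2 * sS * (sS * E2) * (c2 ^ 2 + s2 ^ 2) := by ring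
    have e3 : ((φ' * cS - φ * sS * G) * c1 - φ * cS * E1 * s1) * (- (w * φ * cS * s1))
      + ((φ' * cS - φ * sS * G) * s1 + φ * cS * E1 * c1) * (w * φ * cS * c1)
      + ((φ' * sS + φ * cS * G) * c2 - φ * sS * E2 * s2) * (- (w * φ * sS * s2))
      + ((φ' * sS + φ * cS * G) * s2 + φ * sS * E2 * c2) * (w * φ * sS * c2)
      = w * φ ^ 2 * cS * (cS * E1) * (c1 ^ 2 + s1 ^ 2)
        + w * φ ^ 2 * sS * (sS * E2) * (c2 ^ 2 + s2 ^ 2) := by
      rw [← e1, ← e2]; ring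
    rw [e3, h1, h2, hE1, hE2]
    ring
  · have e1 : (- (w * φ * cS * s1)) ^ 2 + (w * φ * cS * c1) ^ 2 + (- (w * φ * sS * s2)) ^ 2
      + (w * φ * sS * c2) ^ 2
      = (w * φ) ^ 2 * (cS ^ 2 * (c1 ^ 2 + s1 ^ 2) + sS ^ 2 * (c2 ^ 2 + s2 ^ 2)) := by ring
    rw [e1, h1, h2]
    have : cS ^ 2 * 1 + sS ^ 2 * 1 = 1 := by linarith
    rw [this, mul_one]

/-- The candidate map. -/
def Fvec (a b e₁ e₂ : ℝ → ℝ) (w : ℝ) (z : ℝ × ℝ) : EuclideanSpace ℝ (Fin 4) :=
  !₂[a z.1 * cos (w * z.2 + e₁ z.1), a z.1 * sin (w * z.2 + e₁ z.1),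
     b z.1 * cos (w * z.2 + e₂ z.1), b z.1 * sin (w * z.2 + e₂ z.1)]

lemma hasFDerivAt_cosPart {a e : ℝ → ℝ} {a' e' : ℝ} {w : ℝ} {z : ℝ × ℝ}
    (ha : HasDerivAt a a' z.1) (he : HasDerivAt e e' z.1) :
    HasFDerivAt (fun z : ℝ × ℝ => a z.1 * cos (w * z.2 + e z.1))
      (a z.1 • ((- sin (w * z.2 + e z.1)) •
          (w • ContinuousLinearMap.snd ℝ ℝ ℝ + e' • ContinuousLinearMap.fst ℝ ℝ ℝ))
        + cos (w * z.2 + e z.1) • (a' • ContinuousLinearMap.fst ℝ ℝ ℝ)) z := by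
  have h1 : HasFDerivAt (fun z : ℝ × ℝ => a z.1) (a' • ContinuousLinearMap.fst ℝ ℝ ℝ) z :=
    ha.comp_hasFDerivAt z hasFDerivAt_fst
  have h2 : HasFDerivAt (fun z : ℝ × ℝ => e z.1) (e' • ContinuousLinearMap.fst ℝ ℝ ℝ) z :=
    he.comp_hasFDerivAt z hasFDerivAt_fst
  have h3 : HasFDerivAt (fun z : ℝ × ℝ => w * z.2)
      (w • ContinuousLinearMap.snd ℝ ℝ ℝ) z := hasFDerivAt_snd.const_mul w
  have h4 := (h3.add h2).cos
  exact h1.mul h4

lemma hasFDerivAt_sinPart {a e : ℝ → ℝ} {a' e' : ℝ} {w : ℝ} {z : ℝ × ℝ}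
    (ha : HasDerivAt a a' z.1) (he : HasDerivAt e e' z.1) :
    HasFDerivAt (fun z : ℝ × ℝ => a z.1 * sin (w * z.2 + e z.1))
      (a z.1 • (cos (w * z.2 + e z.1) •
          (w • ContinuousLinearMap.snd ℝ ℝ ℝ + e' • ContinuousLinearMap.fst ℝ ℝ ℝ))
        + sin (w * z.2 + e z.1) • (a' • ContinuousLinearMap.fst ℝ ℝ ℝ)) z := by
  have h1 : HasFDerivAt (fun z : ℝ × ℝ => a z.1) (a' • ContinuousLinearMap.fst ℝ ℝ ℝ) z :=
    ha.comp_hasFDerivAt z hasFDerivAt_fst
  have h2 : HasFDerivAt (fun z : ℝ × ℝ => e z.1) (e' • ContinuousLinearMap.fst ℝ ℝ ℝ) z :=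
    he.comp_hasFDerivAt z hasFDerivAt_fst
  have h3 : HasFDerivAt (fun z : ℝ × ℝ => w * z.2)
      (w • ContinuousLinearMap.snd ℝ ℝ ℝ) z := hasFDerivAt_snd.const_mul w
  have h4 := (h3.add h2).sin
  exact h1.mul h4

lemma contDiff_Fvec {a b e₁ e₂ : ℝ → ℝ} (w : ℝ) (ha : ContDiff ℝ ∞ a) (hb : ContDiff ℝ ∞ b)
    (he₁ : ContDiff ℝ ∞ e₁) (he₂ : ContDiff ℝ ∞ e₂) : ContDiff ℝ ∞ (Fvec a b e₁ e₂ w) := by
  rw [contDiff_euclidean]
  have hf : ContDiff ℝ ∞ (fun z : ℝ × ℝ => z.1) := contDiff_fst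
  have hs : ContDiff ℝ ∞ (fun z : ℝ × ℝ => z.2) := contDiff_snd
  have ha' := ha.comp hf
  have hb' := hb.comp hf
  have he₁' := he₁.comp hf
  have he₂' := he₂.comp hf
  have hu₁ : ContDiff ℝ ∞ (fun z : ℝ × ℝ => w * z.2 + e₁ z.1) := (contDiff_const.mul hs).add he₁'
  have hu₂ : ContDiff ℝ ∞ (fun z : ℝ × ℝ => w * z.2 + e₂ z.1) := (contDiff_const.mul hs).add he₂'
  intro i
  fin_cases i
  · simpa [Fvec] using ha'.mul hu₁.cos
  · simpa [Fvec] using ha'.mul hu₁.sin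
  · simpa [Fvec] using hb'.mul hu₂.cos
  · simpa [Fvec] using hb'.mul hu₂.sin

/-- Inner products of the derivative of the candidate. -/
lemma inner_fderiv_Fvec {a b e₁ e₂ : ℝ → ℝ} {w : ℝ} (hd : ContDiff ℝ ∞ (Fvec a b e₁ e₂ w))
    {z : ℝ × ℝ} {a' b' e₁' e₂' : ℝ}
    (ha : HasDerivAt a a' z.1) (hb : HasDerivAt b b' z.1)
    (he₁ : HasDerivAt e₁ e₁' z.1) (he₂ : HasDerivAt e₂ e₂' z.1) (u v : ℝ × ℝ) :
    inner ℝ (fderiv ℝ (Fvec a b e₁ e₂ w) z u) (fderiv ℝ (Fvec a b e₁ e₂ w) z v)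
      = ∑ i : Fin 4,
        ((![a' * cos (w * z.2 + e₁ z.1) - a z.1 * sin (w * z.2 + e₁ z.1) * e₁',
            a' * sin (w * z.2 + e₁ z.1) + a z.1 * cos (w * z.2 + e₁ z.1) * e₁',
            b' * cos (w * z.2 + e₂ z.1) - b z.1 * sin (w * z.2 + e₂ z.1) * e₂',
            b' * sin (w * z.2 + e₂ z.1) + b z.1 * cos (w * z.2 + e₂ z.1) * e₂'] i) * u.1
          + (![- (w * a z.1 * sin (w * z.2 + e₁ z.1)), w * a z.1 * cos (w * z.2 + e₁ z.1),
              - (w * b z.1 * sin (w * z.2 + e₂ z.1)), w * b z.1 * cos (w * z.2 + e₂ z.1)] i) * u.2)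
        * ((![a' * cos (w * z.2 + e₁ z.1) - a z.1 * sin (w * z.2 + e₁ z.1) * e₁',
            a' * sin (w * z.2 + e₁ z.1) + a z.1 * cos (w * z.2 + e₁ z.1) * e₁',
            b' * cos (w * z.2 + e₂ z.1) - b z.1 * sin (w * z.2 + e₂ z.1) * e₂',
            b' * sin (w * z.2 + e₂ z.1) + b z.1 * cos (w * z.2 + e₂ z.1) * e₂'] i) * v.1
          + (![- (w * a z.1 * sin (w * z.2 + e₁ z.1)), w * a z.1 * cos (w * z.2 + e₁ z.1),
              - (w * b z.1 * sin (w * z.2 + e₂ z.1)), w * b z.1 * cos (w * z.2 + e₂ z.1)] i) * v.2) := by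
  have hdiff : DifferentiableAt ℝ (Fvec a b e₁ e₂ w) z :=
    (hd.differentiable (by simp)).differentiableAt
  -- components of the derivative
  have hcomp : ∀ (i : Fin 4) (r : ℝ × ℝ), (fderiv ℝ (Fvec a b e₁ e₂ w) z r) i
      = (![a' * cos (w * z.2 + e₁ z.1) - a z.1 * sin (w * z.2 + e₁ z.1) * e₁',
            a' * sin (w * z.2 + e₁ z.1) + a z.1 * cos (w * z.2 + e₁ z.1) * e₁',
            b' * cos (w * z.2 + e₂ z.1) - b z.1 * sin (w * z.2 + e₂ z.1) * e₂',
            b' * sin (w * z.2 + e₂ z.1) + b z.1 * cos (w * z.2 + e₂ z.1) * e₂'] i) * r.1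
          + (![- (w * a z.1 * sin (w * z.2 + e₁ z.1)), w * a z.1 * cos (w * z.2 + e₁ z.1),
              - (w * b z.1 * sin (w * z.2 + e₂ z.1)), w * b z.1 * cos (w * z.2 + e₂ z.1)] i) * r.2 := by
    intro i r
    have hproj := (PiLp.proj (𝕜 := ℝ) 2 (fun _ : Fin 4 => ℝ) i).hasFDerivAt.comp z hdiff.hasFDerivAt
    have hval : (fderiv ℝ (Fvec a b e₁ e₂ w) z r) i
        = ((PiLp.proj (𝕜 := ℝ) 2 (fun _ : Fin 4 => ℝ) i).comp (fderiv ℝ (Fvec a b e₁ e₂ w) z)) r := rfl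
    rw [hval]
    fin_cases i
    · have := (hasFDerivAt_cosPart (w := w) ha he₁).unique hproj
      rw [← this]
      simp
      ring
    · have := (hasFDerivAt_sinPart (w := w) ha he₁).unique hproj
      rw [← this]
      simp
      ring
    · have := (hasFDerivAt_cosPart (w := w) hb he₂).unique hproj
      rw [← this]
      simp
      ring
    · have := (hasFDerivAt_sinPart (w := w) hb he₂).unique hproj
      rw [← this]
      simp
      ring
  rw [PiLp.inner_apply]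
  refine Finset.sum_congr rfl fun i _ => ?_
  rw [hcomp i u, hcomp i v]
  simp only [RCLike.inner_apply, conj_trivial]
  ring

/-- A continuous periodic function is bounded. -/
lemma periodic_bound {g : ℝ → ℝ} (hg : Continuous g) {L : ℝ} (hL : 0 < L)
    (hper : ∀ x, g (x + L) = g x) : ∃ B : ℝ, 0 ≤ B ∧ ∀ x, |g x| ≤ B := by
  have hp : Function.Periodic g L := hper
  obtain ⟨B, hB⟩ := (isCompact_Icc (a := (0:ℝ)) (b := L)).exists_bound_of_continuousOn
    hg.continuousOn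
  refine ⟨max B 0, le_max_right _ _, fun x => ?_⟩
  obtain ⟨y, hy, hxy⟩ := hp.exists_mem_Ico₀ hL x
  rw [hxy]
  exact le_trans (by simpa using hB y (Ico_subset_Icc_self hy)) (le_max_left _ _)

/-- **Main theorem.** -/
theorem main_torus (L c τ : ℝ) (hL : 0 < L) (hc : 0 < c) (f : ℝ → ℝ) (hf : ContDiff ℝ ∞ f)
    (hpos : ∀ x, 0 < f x) (hper : ∀ x, f (x + L) = f x) :
    ∃ F : ℝ × ℝ → EuclideanSpace ℝ (Fin 4), ContDiff ℝ ∞ F ∧
      (∀ x y, F (x, y + c) = F (x, y)) ∧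
      (∀ x y, F (x + L, y + τ) = F (x, y)) ∧
      ∀ p u v : ℝ × ℝ, inner ℝ (fderiv ℝ F p u) (fderiv ℝ F p v)
        = u.1 * v.1 + f p.1 ^ 2 * (u.2 * v.2) := by
  have hpi := pi_pos
  have hfc : Continuous f := hf.continuous
  -- the derivative of `f`
  set f' := deriv f with hf'def
  have hf'smooth : ContDiff ℝ ∞ f' := (contDiff_infty_iff_deriv.mp hf).2
  have hf'c : Continuous f' := hf'smooth.continuous
  have hfd : ∀ x, HasDerivAt f (f' x) x := fun x =>
    ((hf.differentiable (by simp)) x).hasDerivAt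
  have hf'per : ∀ x, f' (x + L) = f' x := by
    intro x
    have h1 : HasDerivAt (fun x => f (x + L)) (f' (x + L)) x := by
      simpa using (hfd (x + L)).comp_add_const x L
    have h2 : (fun x => f (x + L)) = f := funext hper
    rw [h2] at h1
    exact h1.unique (hfd x)
  obtain ⟨M, hM0, hM⟩ := periodic_bound hf'c hL hf'per
  obtain ⟨Fm, hFm0, hFm⟩ := periodic_bound hfc hL hper
  have hFmpos : 0 < Fm := by
    have := hFm 0
    have h2 := hpos 0
    rw [abs_of_pos h2] at this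
    linarith
  -- the integer weight
  set W₀ := max (2 * M + 1) (2000 * Fm / L) with hW₀
  obtain ⟨k, hk⟩ := exists_nat_ge (W₀ * c / (2 * π))
  set w : ℝ := 2 * π * k / c with hw
  have hwW : W₀ ≤ w := by
    rw [hw, le_div_iff₀ hc]
    rw [div_le_iff₀ (by positivity)] at hk
    linarith
  have hw1 : 2 * M + 1 ≤ w := le_trans (le_max_left _ _) hwW
  have hw2 : 2000 * Fm / L ≤ w := le_trans (le_max_right _ _) hwW
  have hwpos : 0 < w := by linarith
  have hwc : w * c = 2 * π * k := by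
    rw [hw]; field_simp
  -- the radicand and the density
  have hrad : ∀ x, w ^ 2 / 4 ≤ w ^ 2 - f' x ^ 2 := by
    intro x
    have h1 := abs_le.mp (hM x)
    have h2 : f' x ^ 2 ≤ M ^ 2 := by
      have := sq_abs (f' x)
      nlinarith [abs_nonneg (f' x), hM x]
    nlinarith
  have hradpos : ∀ x, 0 < w ^ 2 - f' x ^ 2 := fun x => by
    have := hrad x
    have h3 : 0 < w ^ 2 / 4 := by positivity
    linarith
  set ρ : ℝ → ℝ := fun x => √(w ^ 2 - f' x ^ 2) / f x with hρ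
  have hρsmooth : ContDiff ℝ ∞ ρ := by
    refine ContDiff.div (ContDiff.sqrt (contDiff_const.sub (hf'smooth.pow 2))
      (fun x => (hradpos x).ne')) hf (fun x => (hpos x).ne')
  have hρc : Continuous ρ := hρsmooth.continuous
  have hρper : ∀ x, ρ (x + L) = ρ x := by
    intro x
    simp only [hρ, hf'per, hper]
  have hρsq : ∀ x, ρ x ^ 2 = (w ^ 2 - f' x ^ 2) / f x ^ 2 := by
    intro x
    simp only [hρ, div_pow]
    rw [Real.sq_sqrt (hradpos x).le]
  have hρlow : ∀ x, w / (2 * Fm) ≤ ρ x := by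
    intro x
    have h1 : w / 2 ≤ √(w ^ 2 - f' x ^ 2) := by
      apply le_sqrt_of_sq_le
      have := hrad x
      nlinarith
    have h2 : f x ≤ Fm := by
      have := hFm x
      rwa [abs_of_pos (hpos x)] at this
    have h3 := hpos x
    simp only [hρ]
    rw [div_le_div_iff₀ (by positivity) h3]
    have h4 : 0 ≤ w := hwpos.le
    nlinarith
  set l : ℝ := ∫ x in (0:ℝ)..L, ρ x with hl
  have hl1000 : 1000 ≤ l := by
    have h1 : ∫ _x in (0:ℝ)..L, (w / (2 * Fm)) ≤ ∫ x in (0:ℝ)..L, ρ x :=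
      intervalIntegral.integral_mono_on hL.le (continuous_const.intervalIntegrable _ _)
        (hρc.intervalIntegrable _ _) (fun x _ => hρlow x)
    simp only [intervalIntegral.integral_const, sub_zero, smul_eq_mul] at h1
    have h2 : 1000 ≤ L * (w / (2 * Fm)) := by
      rw [div_le_iff₀ hL] at hw2
      rw [← mul_div_assoc, le_div_iff₀ (by positivity)]
      linarith
    linarith
  have hlpos : 0 < l := by linarith
  -- the reduced phase
  set T : ℝ → ℝ := fun x => (∫ s in (0:ℝ)..x, ρ s) / l with hT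
  have hTd : ∀ x, HasDerivAt T (ρ x / l) x := fun x =>
    (hasDerivAt_primitive hρc x).div_const l
  have hTsmooth : ContDiff ℝ ∞ T := (contDiff_primitive hρsmooth).div_const l
  have hTper : ∀ x, T (x + L) = T x + 1 := by
    intro x
    simp only [hT]
    rw [primitive_add_period hρc hρper x, add_div, div_self hlpos.ne']
  -- holonomy
  obtain ⟨θ, m, hθ0, hθ1, hθeq⟩ : ∃ (θ : ℝ) (m : ℤ), 0 ≤ θ ∧ θ < 2 * π ∧
      - (w * τ) = θ + 2 * π * m := by
    refine ⟨- (w * τ) - 2 * π * ⌊- (w * τ) / (2 * π)⌋, ⌊- (w * τ) / (2 * π)⌋, ?_, ?_, by ring⟩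
    · have := Int.floor_le (- (w * τ) / (2 * π))
      rw [le_div_iff₀ (by positivity)] at this
      linarith
    · have := Int.lt_floor_add_one (- (w * τ) / (2 * π))
      rw [div_lt_iff₀ (by positivity)] at this
      nlinarith
  obtain ⟨p, q, n, hd, hI1, hI2⟩ := exists_closure hl1000 hθ0 hθ1
  have haDsmooth := contDiff_aD hl1000 hd
  have hbDsmooth := contDiff_bD hl1000 hd
  have haDc := haDsmooth.continuous
  have hbDc := hbDsmooth.continuous
  set A : ℝ → ℝ := fun t => ∫ s in (0:ℝ)..t, aD l p q s with hA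
  set B : ℝ → ℝ := fun t => ∫ s in (0:ℝ)..t, bD l p q s with hB
  have hAd : ∀ t, HasDerivAt A (aD l p q t) t := hasDerivAt_primitive haDc
  have hBd : ∀ t, HasDerivAt B (bD l p q t) t := hasDerivAt_primitive hbDc
  have hAsmooth : ContDiff ℝ ∞ A := contDiff_primitive haDsmooth
  have hBsmooth : ContDiff ℝ ∞ B := contDiff_primitive hbDsmooth
  have hAper : ∀ t, A (t + 1) = A t + (θ + 2 * π * n) := by
    intro t
    simp only [hA]
    rw [primitive_add_period haDc (aD_one l p q) t, hI1]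
  have hBper : ∀ t, B (t + 1) = B t + (- θ + 2 * π * n) := by
    intro t
    simp only [hB]
    rw [primitive_add_period hbDc (bD_one l p q) t, hI2]
  -- the data of the map
  set Sx : ℝ → ℝ := fun x => SS p q (T x) with hSx
  have hSxsmooth : ContDiff ℝ ∞ Sx := (contDiff_SS p q).comp hTsmooth
  set a : ℝ → ℝ := fun x => f x / w * cos (Sx x) with ha
  set b : ℝ → ℝ := fun x => f x / w * sin (Sx x) with hb
  set e₁ : ℝ → ℝ := fun x => A (T x) with he₁
  set e₂ : ℝ → ℝ := fun x => - B (T x) with he₂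
  have hasmooth : ContDiff ℝ ∞ a := (hf.div_const w).mul hSxsmooth.cos
  have hbsmooth : ContDiff ℝ ∞ b := (hf.div_const w).mul hSxsmooth.sin
  have he₁smooth : ContDiff ℝ ∞ e₁ := hAsmooth.comp hTsmooth
  have he₂smooth : ContDiff ℝ ∞ e₂ := (hBsmooth.comp hTsmooth).neg
  have hFsmooth := contDiff_Fvec w hasmooth hbsmooth he₁smooth he₂smooth
  have hSxper : ∀ x, Sx (x + L) = Sx x := by
    intro x
    simp only [hSx, hTper, SS_one]
  refine ⟨Fvec a b e₁ e₂ w, hFsmooth, ?_, ?_, ?_⟩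
  · -- periodicity in `y`
    intro x y
    have h1 : w * (y + c) = w * y + k * (2 * π) := by
      rw [mul_add, hwc]; ring
    have h2 : ∀ e : ℝ, cos (w * (y + c) + e) = cos (w * y + e) := by
      intro e
      rw [h1, show w * y + k * (2 * π) + e = w * y + e + k * (2 * π) by ring]
      exact cos_add_nat_mul_two_pi _ _
    have h3 : ∀ e : ℝ, sin (w * (y + c) + e) = sin (w * y + e) := by
      intro e
      rw [h1, show w * y + k * (2 * π) + e = w * y + e + k * (2 * π) by ring]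
      exact sin_add_nat_mul_two_pi _ _
    simp only [Fvec, h2, h3]
  · -- periodicity in the other direction
    intro x y
    have hax : a (x + L) = a x := by simp only [ha, hper, hSxper]
    have hbx : b (x + L) = b x := by simp only [hb, hper, hSxper]
    have hu₁ : w * (y + τ) + e₁ (x + L) = w * y + e₁ x + ((n - m : ℤ) : ℝ) * (2 * π) := by
      simp only [he₁, hTper, hAper]
      push_cast
      have : w * τ = - (θ + 2 * π * m) := by linarith
      rw [mul_add, this]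
      ring
    have hu₂ : w * (y + τ) + e₂ (x + L) = w * y + e₂ x + ((- n - m : ℤ) : ℝ) * (2 * π) := by
      simp only [he₂, hTper, hBper]
      push_cast
      have : w * τ = - (θ + 2 * π * m) := by linarith
      rw [mul_add, this]
      ring
    simp only [Fvec, hax, hbx, hu₁, hu₂, cos_add_int_mul_two_pi, sin_add_int_mul_two_pi]
  · -- the metric
    rintro ⟨x, y⟩ u v
    -- derivative data at `x`
    set cS := cos (Sx x) with hcS
    set sS := sin (Sx x) with hsS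
    have hcSpos : 0 < cS := SS_cos_pos hd (T x)
    have hsSpos : 0 < sS := SS_sin_pos hd (T x)
    set g := -(2 * π * q * sin (2 * π * T x)) / l with hg
    set h := hh l q (T x) with hh'
    have hgh : g ^ 2 + h ^ 2 = 1 := by
      rw [hh', hh_sq hl1000 hd.2.1 hd.2.2, hg]
      have : (-(2 * π * q * sin (2 * π * T x)) / l) ^ 2 = (2 * π * q * sin (2 * π * T x) / l) ^ 2 := by
        ring
      rw [this]; ring
    have hSSd : HasDerivAt (fun t => SS p q t) (-(2 * π * q * sin (2 * π * T x))) (T x) := by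
      have h1 : HasDerivAt (fun t : ℝ => cos (2 * π * t))
          (- sin (2 * π * T x) * (2 * π)) (T x) := by
        simpa using ((hasDerivAt_id' (T x)).const_mul (2 * π)).cos
      have h2 := (h1.const_mul q).const_add (π / 4 + p)
      refine h2.congr_deriv ?_
      ring
    have hSxd : HasDerivAt Sx (ρ x * g) x := by
      have h1 := hSSd.comp x (hTd x)
      refine h1.congr_deriv ?_
      rw [hg]; ring
    set φ := f x / w with hφ
    set φ' := f' x / w with hφ'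
    have hφd : HasDerivAt (fun x => f x / w) φ' x := (hfd x).div_const w
    have had : HasDerivAt a (φ' * cS - φ * sS * (ρ x * g)) x := by
      have h1 := hφd.mul hSxd.cos
      refine h1.congr_deriv ?_
      rw [hφ, hφ', hcS, hsS]; ring
    have hbd : HasDerivAt b (φ' * sS + φ * cS * (ρ x * g)) x := by
      have h1 := hφd.mul hSxd.sin
      refine h1.congr_deriv ?_
      rw [hφ, hφ', hcS, hsS]; ring
    have he₁d : HasDerivAt e₁ (aD l p q (T x) * (ρ x / l)) x := (hAd (T x)).comp x (hTd x)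
    have he₂d : HasDerivAt e₂ (-(bD l p q (T x) * (ρ x / l))) x :=
      ((hBd (T x)).comp x (hTd x)).neg
    set E1 := aD l p q (T x) * (ρ x / l) with hE1
    set E2 := -(bD l p q (T x) * (ρ x / l)) with hE2
    have hE1' : cS * E1 = ρ x * h * sS := by
      rw [hE1]
      have : aD l p q (T x) = l * h * (sS / cS) := rfl
      rw [this]
      field_simp
    have hE2' : sS * E2 = -(ρ x * h * cS) := by
      rw [hE2]
      have : bD l p q (T x) = l * h * (cS / sS) := rfl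
      rw [this]
      field_simp
    have hunit : φ' ^ 2 + φ ^ 2 * ρ x ^ 2 = 1 := by
      rw [hρsq x, hφ, hφ']
      have := hpos x
      field_simp
      ring
    have hI := inner_fderiv_Fvec (z := (x, y)) hFsmooth had hbd he₁d he₂d u v
    rw [hI]
    simp only [Fin.sum_univ_four]
    have hcs1 : cos (w * y + e₁ x) ^ 2 + sin (w * y + e₁ x) ^ 2 = 1 := cos_sq_add_sin_sq _
    have hcs2 : cos (w * y + e₂ x) ^ 2 + sin (w * y + e₂ x) ^ 2 = 1 := cos_sq_add_sin_sq _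
    have hSS1 : cS ^ 2 + sS ^ 2 = 1 := cos_sq_add_sin_sq _
    obtain ⟨hXX, hXY, hYY⟩ := metric_algebra cS sS (cos (w * y + e₁ x)) (sin (w * y + e₁ x))
      (cos (w * y + e₂ x)) (sin (w * y + e₂ x)) φ φ' (ρ x * g) E1 E2 w (ρ x) g h hSS1 hcs1 hcs2
      hgh rfl hE1' hE2' hunit
    have hwφ : (w * φ) ^ 2 = f x ^ 2 := by
      rw [hφ]; field_simp
    rw [hwφ] at hYY
    have hax : a x = φ * cS := rfl
    have hbx : b x = φ * sS := rfl
    simp only [hax, hbx, Matrix.cons_val_zero, Matrix.cons_val_one, Matrix.cons_val]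
    linear_combination u.1 * v.1 * hXX + (u.1 * v.2 + u.2 * v.1) * hXY + u.2 * v.2 * hYY

end

end Vale.Agent.Lib.P205
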