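import Mathlib

/-!
A two-variable intermediate value lemma in which the first function is strictly monotone in the
first variable.
-/

namespace Vale.Agent.Lib.P205

open Set

lemma miranda (G₁ G₂ : ℝ → ℝ → ℝ) (c₁ : Continuous (Function.uncurry G₁))
    (c₂ : Continuous (Function.uncurry G₂)) (P Q T₁ T₂ : ℝ) (hP : 0 ≤ P) (hQ : 0 ≤ Q)
    (hmono : ∀ q ∈ Icc (0:ℝ) Q, StrictMonoOn (fun p => G₁ p q) (Icc (-P) P))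
    (h1 : ∀ q ∈ Icc (0:ℝ) Q, G₁ (-P) q ≤ T₁ ∧ T₁ ≤ G₁ P q)
    (h2 : ∀ p ∈ Icc (-P) P, G₁ p 0 = T₁ → G₂ p 0 ≤ T₂)
    (h3 : ∀ p ∈ Icc (-P) P, G₁ p Q = T₁ → T₂ ≤ G₂ p Q) :
    ∃ p ∈ Icc (-P) P, ∃ q ∈ Icc (0:ℝ) Q, G₁ p q = T₁ ∧ G₂ p q = T₂ := by
  -- the solution set of the first equation
  let R : Set (ℝ × ℝ) := Icc (-P) P ×ˢ Icc (0:ℝ) Q
  have hR : IsCompact R := isCompact_Icc.prod isCompact_Icc
  have hZ : ∀ x : Set (ℝ × ℝ), IsClosed x → IsCompact (R ∩ x) := fun x hx => hR.inter_right hx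
  let Z₁ : Set (ℝ × ℝ) := {z | G₁ z.1 z.2 = T₁} ∩ {z | G₂ z.1 z.2 ≤ T₂}
  let Z₂ : Set (ℝ × ℝ) := {z | G₁ z.1 z.2 = T₁} ∩ {z | T₂ ≤ G₂ z.1 z.2}
  have hc₁ : Continuous fun z : ℝ × ℝ => G₁ z.1 z.2 := c₁
  have hc₂ : Continuous fun z : ℝ × ℝ => G₂ z.1 z.2 := c₂
  have hZ₁ : IsClosed Z₁ :=
    (isClosed_eq hc₁ continuous_const).inter (isClosed_le hc₂ continuous_const)
  have hZ₂ : IsClosed Z₂ :=
    (isClosed_eq hc₁ continuous_const).inter (isClosed_le continuous_const hc₂)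
  let A : Set ℝ := Prod.snd '' (R ∩ Z₁)
  let B : Set ℝ := Prod.snd '' (R ∩ Z₂)
  have hA : IsClosed A := ((hZ _ hZ₁).image continuous_snd).isClosed
  have hB : IsClosed B := ((hZ _ hZ₂).image continuous_snd).isClosed
  -- solving the first equation for a given `q`
  have hsolve : ∀ q ∈ Icc (0:ℝ) Q, ∃ p ∈ Icc (-P) P, G₁ p q = T₁ := by
    intro q hq
    have hcont : ContinuousOn (fun p => G₁ p q) (Icc (-P) P) :=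
      (hc₁.comp (continuous_id.prodMk continuous_const)).continuousOn
    have := intermediate_value_Icc (by linarith : -P ≤ P) hcont
    exact this ⟨(h1 q hq).1, (h1 q hq).2⟩
  have hcover : Icc (0:ℝ) Q ⊆ A ∪ B := by
    intro q hq
    obtain ⟨p, hp, hpq⟩ := hsolve q hq
    rcases le_total (G₂ p q) T₂ with h | h
    · exact Or.inl ⟨(p, q), ⟨⟨hp, hq⟩, hpq, h⟩, rfl⟩
    · exact Or.inr ⟨(p, q), ⟨⟨hp, hq⟩, hpq, h⟩, rfl⟩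
  have h0 : (Icc (0:ℝ) Q ∩ A).Nonempty := by
    have hq : (0:ℝ) ∈ Icc (0:ℝ) Q := ⟨le_rfl, hQ⟩
    obtain ⟨p, hp, hpq⟩ := hsolve 0 hq
    exact ⟨0, hq, ⟨(p, 0), ⟨⟨hp, hq⟩, hpq, h2 p hp hpq⟩, rfl⟩⟩
  have hQQ : (Icc (0:ℝ) Q ∩ B).Nonempty := by
    have hq : Q ∈ Icc (0:ℝ) Q := ⟨hQ, le_rfl⟩
    obtain ⟨p, hp, hpq⟩ := hsolve Q hq
    exact ⟨Q, hq, ⟨(p, Q), ⟨⟨hp, hq⟩, hpq, h3 p hp hpq⟩, rfl⟩⟩
  have hconn := isPreconnected_Icc (a := (0:ℝ)) (b := Q)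
  rw [isPreconnected_closed_iff] at hconn
  obtain ⟨q, hq, ⟨z₁, hz₁, hz₁q⟩, ⟨z₂, hz₂, hz₂q⟩⟩ := hconn A B hA hB hcover h0 hQQ
  obtain ⟨⟨hz₁R₁, hz₁R₂⟩, hz₁a, hz₁b⟩ := hz₁
  obtain ⟨⟨hz₂R₁, hz₂R₂⟩, hz₂a, hz₂b⟩ := hz₂
  have hzz : z₁.1 = z₂.1 := by
    have e₁ : z₁.2 = q := hz₁q
    have e₂ : z₂.2 = q := hz₂q
    have ha : G₁ z₁.1 q = T₁ := by rw [← e₁]; exact hz₁a
    have hb : G₁ z₂.1 q = T₁ := by rw [← e₂]; exact hz₂a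
    exact (hmono q hq).injOn hz₁R₁ hz₂R₁ (ha.trans hb.symm)
  have e₁ : z₁.2 = q := hz₁q
  have e₂ : z₂.2 = q := hz₂q
  refine ⟨z₁.1, hz₁R₁, q, hq, ?_, ?_⟩
  · rw [← e₁]; exact hz₁a
  · apply le_antisymm
    · rw [← e₁]; exact hz₁b
    · have : T₂ ≤ G₂ z₂.1 z₂.2 := hz₂b
      rw [e₂, ← hzz] at this
      exact this

end Vale.Agent.Lib.P205
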